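import Vale.Agent.Kap.Main
import Vale.Agent.Kap.Torsion
import Vale.Agent.Kap.Thin

theorem Vale.Agent.Results.P186.HypNotRF.result :
    ∃ (G : Type) (_ : Group G), Vale.Agent.Kap.IsWordHyperbolic G ∧
      (∀ g : G, IsOfFinOrder g → g = 1) ∧ ¬ Group.ResiduallyFinite G := by
  obtain ⟨V, E, S, _, _, Γ, pos, C, hp, hf, a, b, c, h1, h2, h3⟩ := Vale.Agent.Kap.exists_graph
  obtain ⟨ρ, hρ⟩ := Vale.Agent.Kap.homFill_of_fillBound hp hf
  exact ⟨Γ.Grp, inferInstance,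
    Vale.Agent.Kap.isWordHyperbolic_of_homFill _ (Vale.Agent.Kap.closure_gen Γ) hρ,
    Vale.Agent.Kap.torsionFree_of_fillBound hp hf, fun _ =>
      Vale.Agent.Kap.not_symm_of_abc h2 h3
        (Vale.Agent.Kap.mul_eq_one_symm_of_residuallyFinite a b h1)⟩
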