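import Vale.Agent.P186.NotRF
import Vale.Agent.P186.Exists

/-! A torsion-free word-hyperbolic group that is not residually finite. -/

namespace Vale.Agent.Results.P186.NotRF

/-- A group is word-hyperbolic if it has a finite generating set `S` and a constant `δ` such
that, in the Cayley graph for `S`, every geodesic triangle is `δ`-thin: for all corners
`x, y, z` and all geodesic sides `p : x → y`, `q : y → z`, `r : z → x`, each vertex of `p` is
within distance `δ` of a vertex of `q` or of `r` (the triangle is arbitrary, so by cyclic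
relabelling this holds for each of the three sides). -/
def IsWordHyperbolic (G : Type) [Group G] : Prop :=
  ∃ S : Set G, S.Finite ∧ Subgroup.closure S = ⊤ ∧ ∃ δ : ℕ,
    ∀ (x y z : G) (p : (SimpleGraph.mulCayley S).Walk x y) (q : (SimpleGraph.mulCayley S).Walk y z)
      (r : (SimpleGraph.mulCayley S).Walk z x),
      p.length = (SimpleGraph.mulCayley S).dist x y →
      q.length = (SimpleGraph.mulCayley S).dist y z →
      r.length = (SimpleGraph.mulCayley S).dist z x →
      ∀ a ∈ p.support, ∃ b, (b ∈ q.support ∨ b ∈ r.support) ∧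
        (SimpleGraph.mulCayley S).dist a b ≤ δ

theorem result : ∃ (G : Type) (_ : Group G), IsWordHyperbolic G ∧
    (∀ g : G, IsOfFinOrder g → g = 1) ∧ ¬ Group.ResiduallyFinite G := by
  obtain ⟨S, K, V, _, _, _, _, ⟨Ω⟩⟩ := Vale.Agent.P186.exists_config
  obtain ⟨δ, hδ⟩ := Ω.cut.slim
  refine ⟨FreeGroup S ⧸ Ω.cut.N, inferInstance,
    ⟨Set.range fun s => Ω.cut.π (FreeGroup.of s), Set.finite_range _, ?_, δ,
      fun x y z p q r hp hq hr => hδ _ x y z p q r hp hq hr le_rfl⟩,
    Ω.cut.torsionFree, Ω.not_rf⟩
  have h := congrArg (Subgroup.map Ω.cut.π) (FreeGroup.closure_range_of S)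
  rw [MonoidHom.map_closure, ← Set.range_comp,
    Subgroup.map_top_of_surjective _ (QuotientGroup.mk'_surjective _)] at h
  exact h

end Vale.Agent.Results.P186.NotRF
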